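/-
S0453 (row 299), WP-D1: the colouring model and the three-party inequality (L3)
(notes/s0453/PROOF.md, section 3).  helper12.

Mathlib only.  The one-dimensional lemma (PROOF.md section 4) enters as the explicit
hypothesis `OneDimStatement`.
-/
import Mathlib

set_option autoImplicit false
set_option linter.unusedSectionVars false
set_option linter.unusedVariables false

open Finset

namespace Crest.Agent.Helper12.S0453

section Cls

variable {K : Type*} [Fintype K] [DecidableEq K]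

/-- The colour class of colour `i`. -/
def cls (s : K → Fin 3) (i : Fin 3) : Finset K := univ.filter (fun x => s x = i)

lemma mem_cls {s : K → Fin 3} {i : Fin 3} {x : K} : x ∈ cls s i ↔ s x = i := by
  simp [cls]

lemma mem_cls_comp {s : K → Fin 3} {π : Equiv.Perm K} {i : Fin 3} {x : K} :
    x ∈ cls (s ∘ π) i ↔ π x ∈ cls s i := by
  simp [mem_cls]

lemma card_cls_comp (s : K → Fin 3) (π : Equiv.Perm K) (i : Fin 3) :
    (cls (s ∘ π) i).card = (cls s i).card := by
  apply Finset.card_bij (fun x _ => π x)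
  · intro x hx; exact mem_cls_comp.mp hx
  · intro x _ y _ h; exact π.injective h
  · intro y hy
    exact ⟨π.symm y, by simpa [mem_cls_comp] using hy, by simp⟩

lemma cls_comp_congr {s s' : K → Fin 3} (π : Equiv.Perm K) {i : Fin 3}
    (h : cls s i = cls s' i) : cls (s ∘ π) i = cls (s' ∘ π) i := by
  ext x
  rw [mem_cls_comp, mem_cls_comp, h]

lemma sum_card_cls (s : K → Fin 3) : ∑ i, (cls s i).card = Fintype.card K := by
  have h := Finset.card_eq_sum_card_fiberwise (f := s) (s := (univ : Finset K))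
    (t := (univ : Finset (Fin 3))) (fun x _ => by simp)
  rw [Finset.card_univ] at h
  rw [h]
  rfl

/-- A swap does not change the colour class of a colour carried by neither point. -/
lemma cls_comp_swap_of_ne (s : K → Fin 3) (x y : K) (k : Fin 3) (hx : s x ≠ k) (hy : s y ≠ k) :
    cls (s ∘ Equiv.swap x y) k = cls s k := by
  ext z
  rw [mem_cls_comp, mem_cls, mem_cls]
  by_cases hzx : z = x
  · subst hzx
    rw [Equiv.swap_apply_left]
    exact ⟨fun h => absurd h hy, fun h => absurd h hx⟩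
  · by_cases hzy : z = y
    · subst hzy
      rw [Equiv.swap_apply_right]
      exact ⟨fun h => absurd h hx, fun h => absurd h hy⟩
    · rw [Equiv.swap_apply_of_ne_of_ne hzx hzy]

end Cls

lemma exists_ne_ne (j j' : Fin 3) : ∃ k : Fin 3, j ≠ k ∧ j' ≠ k := by
  revert j j'; decide

section Model

variable {K1 K2 : Type*} [Fintype K1] [DecidableEq K1] [Fintype K2] [DecidableEq K2]

/-- Pairs of 3-colourings. -/
abbrev Col (K1 K2 : Type*) := (K1 → Fin 3) × (K2 → Fin 3)

/-- The states of the colouring model: for each colour the difference of the two class sizes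
is prescribed. -/
def states (δ : Fin 3 → ℤ) : Finset (Col K1 K2) :=
  univ.filter (fun σ => ∀ i, ((cls σ.1 i).card : ℤ) - ((cls σ.2 i).card : ℤ) = δ i)

lemma mem_states {δ : Fin 3 → ℤ} {σ : Col K1 K2} :
    σ ∈ states δ ↔ ∀ i, ((cls σ.1 i).card : ℤ) - ((cls σ.2 i).card : ℤ) = δ i := by
  simp [states]

/-- What party `i` sees. -/
def view (i : Fin 3) (σ : Col K1 K2) : Finset K1 × Finset K2 := (cls σ.1 i, cls σ.2 i)

lemma view_eq_iff {i : Fin 3} {σ σ' : Col K1 K2} :
    view i σ = view i σ' ↔ cls σ.1 i = cls σ'.1 i ∧ cls σ.2 i = cls σ'.2 i := by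
  simp [view, Prod.ext_iff]

/-- Relabelling the items. -/
def act (π : Equiv.Perm K1 × Equiv.Perm K2) (σ : Col K1 K2) : Col K1 K2 :=
  (σ.1 ∘ π.1, σ.2 ∘ π.2)

lemma act_fst (π : Equiv.Perm K1 × Equiv.Perm K2) (σ : Col K1 K2) :
    (act π σ).1 = σ.1 ∘ π.1 := rfl

lemma act_snd (π : Equiv.Perm K1 × Equiv.Perm K2) (σ : Col K1 K2) :
    (act π σ).2 = σ.2 ∘ π.2 := rfl

lemma act_mem_states {δ : Fin 3 → ℤ} (π : Equiv.Perm K1 × Equiv.Perm K2) {σ : Col K1 K2}
    (h : σ ∈ states δ) : act π σ ∈ states δ := by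
  rw [mem_states] at h ⊢
  intro i
  rw [act_fst, act_snd, card_cls_comp, card_cls_comp]
  exact h i

lemma view_act_congr (π : Equiv.Perm K1 × Equiv.Perm K2) {i : Fin 3} {σ σ' : Col K1 K2}
    (h : view i σ = view i σ') : view i (act π σ) = view i (act π σ') := by
  rw [view_eq_iff] at h ⊢
  exact ⟨cls_comp_congr π.1 h.1, cls_comp_congr π.2 h.2⟩

lemma act_swapL_invol (x y : K1) (σ : Col K1 K2) :
    act (Equiv.swap x y, 1) (act (Equiv.swap x y, 1) σ) = σ := by
  ext z
  · simp [act]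
  · simp [act]

lemma act_swapR_invol (x y : K2) (σ : Col K1 K2) :
    act (1, Equiv.swap x y) (act (1, Equiv.swap x y) σ) = σ := by
  ext z
  · simp [act]
  · simp [act]

lemma exists_view_fixed_swapL (x y : K1) (σ : Col K1 K2) :
    ∃ k, view k (act (Equiv.swap x y, 1) σ) = view k σ := by
  obtain ⟨k, hk1, hk2⟩ := exists_ne_ne (σ.1 x) (σ.1 y)
  refine ⟨k, ?_⟩
  rw [view_eq_iff]
  refine ⟨cls_comp_swap_of_ne σ.1 x y k hk1 hk2, ?_⟩
  simp [act]

lemma exists_view_fixed_swapR (x y : K2) (σ : Col K1 K2) :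
    ∃ k, view k (act (1, Equiv.swap x y) σ) = view k σ := by
  obtain ⟨k, hk1, hk2⟩ := exists_ne_ne (σ.2 x) (σ.2 y)
  refine ⟨k, ?_⟩
  rw [view_eq_iff]
  refine ⟨?_, cls_comp_swap_of_ne σ.2 x y k hk1 hk2⟩
  simp [act]

end Model

section Forms

variable {K1 K2 : Type*} [Fintype K1] [DecidableEq K1] [Fintype K2] [DecidableEq K2]

/-- Triples of functions on colourings. -/
abbrev Tri (K1 K2 : Type*) := Fin 3 → Col K1 K2 → ℝ

/-- Party `i`'s function only depends on what party `i` sees. -/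
def Meas (h : Tri K1 K2) : Prop := ∀ i σ σ', view i σ = view i σ' → h i σ = h i σ'

lemma Meas.add {a b : Tri K1 K2} (ha : Meas a) (hb : Meas b) : Meas (a + b) := by
  intro i σ σ' hv
  simp only [Pi.add_apply]
  rw [ha i σ σ' hv, hb i σ σ' hv]

lemma Meas.sub {a b : Tri K1 K2} (ha : Meas a) (hb : Meas b) : Meas (a - b) := by
  intro i σ σ' hv
  simp only [Pi.sub_apply]
  rw [ha i σ σ' hv, hb i σ σ' hv]

lemma Meas.smul {a : Tri K1 K2} (c : ℝ) (ha : Meas a) : Meas (c • a) := by
  intro i σ σ' hv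
  simp only [Pi.smul_apply]
  rw [ha i σ σ' hv]

lemma Meas.zero : Meas (0 : Tri K1 K2) := by
  intro i σ σ' _
  rfl

/-- Twisting by a relabelling. -/
def tw (τ : Equiv.Perm K1 × Equiv.Perm K2) (h : Tri K1 K2) : Tri K1 K2 :=
  fun i σ => h i (act τ σ)

lemma tw_apply (τ : Equiv.Perm K1 × Equiv.Perm K2) (h : Tri K1 K2) (i : Fin 3) (σ : Col K1 K2) :
    tw τ h i σ = h i (act τ σ) := rfl

lemma Meas.tw {a : Tri K1 K2} (ha : Meas a) (τ : Equiv.Perm K1 × Equiv.Perm K2) :
    Meas (tw τ a) := by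
  intro i σ σ' hv
  exact ha i _ _ (view_act_congr τ hv)

def sumSq (δ : Fin 3 → ℤ) (h : Tri K1 K2) : ℝ := ∑ σ ∈ states δ, (∑ i, h i σ) ^ 2

def diagSq (δ : Fin 3 → ℤ) (h : Tri K1 K2) : ℝ := ∑ σ ∈ states δ, ∑ i, (h i σ) ^ 2

def mean (δ : Fin 3 → ℤ) (h : Tri K1 K2) (i : Fin 3) : ℝ := ∑ σ ∈ states δ, h i σ

/-- The (scaled) variance form `2 ∑ Var g_i - Var (∑ g_i)`. -/
def Qv (δ : Fin 3 → ℤ) (h : Tri K1 K2) : ℝ :=
  2 * (((states δ : Finset (Col K1 K2)).card : ℝ) * diagSq δ h - ∑ i, (mean δ h i) ^ 2)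
    - (((states δ : Finset (Col K1 K2)).card : ℝ) * sumSq δ h - (∑ i, mean δ h i) ^ 2)

/-- The full Euclidean norm squared. -/
def N2 (h : Tri K1 K2) : ℝ := ∑ i, ∑ σ : Col K1 K2, (h i σ) ^ 2

lemma sumSq_def (δ : Fin 3 → ℤ) (h : Tri K1 K2) :
    sumSq δ h = ∑ σ ∈ states δ, (∑ i, h i σ) ^ 2 := by unfold sumSq; rfl

lemma diagSq_def (δ : Fin 3 → ℤ) (h : Tri K1 K2) :
    diagSq δ h = ∑ σ ∈ states δ, ∑ i, (h i σ) ^ 2 := by unfold diagSq; rfl

lemma mean_def (δ : Fin 3 → ℤ) (h : Tri K1 K2) (i : Fin 3) :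
    mean δ h i = ∑ σ ∈ states δ, h i σ := by unfold mean; rfl

lemma Qv_def (δ : Fin 3 → ℤ) (h : Tri K1 K2) :
    Qv δ h = 2 * (((states δ : Finset (Col K1 K2)).card : ℝ) * diagSq δ h - ∑ i, (mean δ h i) ^ 2)
    - (((states δ : Finset (Col K1 K2)).card : ℝ) * sumSq δ h - (∑ i, mean δ h i) ^ 2) := by
  unfold Qv; rfl

lemma N2_def (h : Tri K1 K2) : N2 h = ∑ i, ∑ σ : Col K1 K2, (h i σ) ^ 2 := by unfold N2; rfl

/-! ### parallelogram identities -/

lemma sumSq_para (δ : Fin 3 → ℤ) (a b : Tri K1 K2) :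
    sumSq δ (a + b) + sumSq δ (a - b) = 2 * sumSq δ a + 2 * sumSq δ b := by
  simp only [sumSq_def]
  rw [← Finset.sum_add_distrib, Finset.mul_sum, Finset.mul_sum, ← Finset.sum_add_distrib]
  refine Finset.sum_congr rfl fun σ _ => ?_
  simp only [Fin.sum_univ_three, Pi.add_apply, Pi.sub_apply]
  ring

lemma diagSq_para (δ : Fin 3 → ℤ) (a b : Tri K1 K2) :
    diagSq δ (a + b) + diagSq δ (a - b) = 2 * diagSq δ a + 2 * diagSq δ b := by
  simp only [diagSq_def]
  rw [← Finset.sum_add_distrib, Finset.mul_sum, Finset.mul_sum, ← Finset.sum_add_distrib]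
  refine Finset.sum_congr rfl fun σ _ => ?_
  simp only [Fin.sum_univ_three, Pi.add_apply, Pi.sub_apply]
  ring

lemma mean_add (δ : Fin 3 → ℤ) (a b : Tri K1 K2) (i : Fin 3) :
    mean δ (a + b) i = mean δ a i + mean δ b i := by
  simp only [mean_def, Pi.add_apply, Finset.sum_add_distrib]

lemma mean_sub (δ : Fin 3 → ℤ) (a b : Tri K1 K2) (i : Fin 3) :
    mean δ (a - b) i = mean δ a i - mean δ b i := by
  simp only [mean_def, Pi.sub_apply, Finset.sum_sub_distrib]

lemma Qv_para (δ : Fin 3 → ℤ) (a b : Tri K1 K2) :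
    Qv δ (a + b) + Qv δ (a - b) = 2 * Qv δ a + 2 * Qv δ b := by
  have hA := sumSq_para δ a b
  have hD := diagSq_para δ a b
  simp only [Qv_def, mean_add, mean_sub, Fin.sum_univ_three]
  linear_combination (2 * ((states δ : Finset (Col K1 K2)).card : ℝ)) * hD
    - ((states δ : Finset (Col K1 K2)).card : ℝ) * hA

lemma N2_para (a b : Tri K1 K2) : N2 (a + b) + N2 (a - b) = 2 * N2 a + 2 * N2 b := by
  simp only [N2_def, Fin.sum_univ_three, Pi.add_apply, Pi.sub_apply]
  simp only [← Finset.sum_add_distrib, Finset.mul_sum]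
  refine Finset.sum_congr rfl fun σ _ => ?_
  ring

/-! ### scaling -/

lemma sumSq_smul (δ : Fin 3 → ℤ) (c : ℝ) (a : Tri K1 K2) :
    sumSq δ (c • a) = c ^ 2 * sumSq δ a := by
  simp only [sumSq_def]
  rw [Finset.mul_sum]
  refine Finset.sum_congr rfl fun σ _ => ?_
  simp only [Fin.sum_univ_three, Pi.smul_apply, smul_eq_mul]
  ring

lemma diagSq_smul (δ : Fin 3 → ℤ) (c : ℝ) (a : Tri K1 K2) :
    diagSq δ (c • a) = c ^ 2 * diagSq δ a := by
  simp only [diagSq_def]
  rw [Finset.mul_sum]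
  refine Finset.sum_congr rfl fun σ _ => ?_
  simp only [Fin.sum_univ_three, Pi.smul_apply, smul_eq_mul]
  ring

lemma mean_smul (δ : Fin 3 → ℤ) (c : ℝ) (a : Tri K1 K2) (i : Fin 3) :
    mean δ (c • a) i = c * mean δ a i := by
  simp only [mean_def, Pi.smul_apply, smul_eq_mul, Finset.mul_sum]

lemma Qv_smul (δ : Fin 3 → ℤ) (c : ℝ) (a : Tri K1 K2) : Qv δ (c • a) = c ^ 2 * Qv δ a := by
  simp only [Qv_def, sumSq_smul, diagSq_smul, mean_smul, Fin.sum_univ_three]
  ring

lemma N2_smul (c : ℝ) (a : Tri K1 K2) : N2 (c • a) = c ^ 2 * N2 a := by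
  simp only [N2_def, Fin.sum_univ_three, Pi.smul_apply, smul_eq_mul]
  simp only [mul_add, Finset.mul_sum]
  congr 1
  · congr 1
    all_goals exact Finset.sum_congr rfl fun σ _ => by ring
  · exact Finset.sum_congr rfl fun σ _ => by ring

lemma N2_nonneg (a : Tri K1 K2) : 0 ≤ N2 a := by
  rw [N2_def]
  exact Finset.sum_nonneg fun i _ => Finset.sum_nonneg fun σ _ => sq_nonneg _

lemma sq_le_N2 (a : Tri K1 K2) (i : Fin 3) (σ : Col K1 K2) : (a i σ) ^ 2 ≤ N2 a := by
  rw [N2_def]
  calc (a i σ) ^ 2 ≤ ∑ σ' : Col K1 K2, (a i σ') ^ 2 :=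
        Finset.single_le_sum (f := fun σ' => (a i σ') ^ 2) (fun _ _ => sq_nonneg _) (mem_univ σ)
    _ ≤ ∑ i', ∑ σ' : Col K1 K2, (a i' σ') ^ 2 :=
        Finset.single_le_sum (f := fun i' => ∑ σ' : Col K1 K2, (a i' σ') ^ 2)
          (fun _ _ => Finset.sum_nonneg fun _ _ => sq_nonneg _) (mem_univ i)

lemma N2_eq_zero {a : Tri K1 K2} (h : N2 a = 0) : a = 0 := by
  funext i σ
  have h1 := sq_le_N2 a i σ
  rw [h] at h1
  have h2 : (a i σ) ^ 2 = 0 := le_antisymm h1 (sq_nonneg _)
  simpa using h2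

lemma Qv_zero (δ : Fin 3 → ℤ) : Qv δ (0 : Tri K1 K2) = 0 := by
  simp [Qv_def, sumSq_def, diagSq_def, mean_def]

lemma N2_zero : N2 (0 : Tri K1 K2) = 0 := by
  simp [N2_def]

lemma Qv_congr (δ : Fin 3 → ℤ) {a b : Tri K1 K2} (h : ∀ i, ∀ σ ∈ states δ, a i σ = b i σ) :
    Qv δ a = Qv δ b := by
  have hA : sumSq δ a = sumSq δ b := by
    simp only [sumSq_def]
    refine Finset.sum_congr rfl fun σ hσ => ?_
    congr 1
    exact Finset.sum_congr rfl fun i _ => h i σ hσ
  have hD : diagSq δ a = diagSq δ b := by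
    simp only [diagSq_def]
    refine Finset.sum_congr rfl fun σ hσ => ?_
    exact Finset.sum_congr rfl fun i _ => by rw [h i σ hσ]
  have hM : ∀ i, mean δ a i = mean δ b i := by
    intro i
    simp only [mean_def]
    exact Finset.sum_congr rfl fun σ hσ => h i σ hσ
  simp only [Qv_def, hA, hD, hM]

/-! ### invariance under involutive relabellings -/

lemma sum_states_act (δ : Fin 3 → ℤ) (τ : Equiv.Perm K1 × Equiv.Perm K2)
    (hτ : ∀ σ : Col K1 K2, act τ (act τ σ) = σ) (F : Col K1 K2 → ℝ) :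
    ∑ σ ∈ states δ, F (act τ σ) = ∑ σ ∈ states δ, F σ :=
  Finset.sum_nbij' (act τ) (act τ) (fun a ha => act_mem_states τ ha)
    (fun a ha => act_mem_states τ ha) (fun a _ => hτ a) (fun a _ => hτ a) (fun a _ => rfl)

lemma sum_univ_act (τ : Equiv.Perm K1 × Equiv.Perm K2)
    (hτ : ∀ σ : Col K1 K2, act τ (act τ σ) = σ) (F : Col K1 K2 → ℝ) :
    ∑ σ : Col K1 K2, F (act τ σ) = ∑ σ : Col K1 K2, F σ :=
  Finset.sum_nbij' (act τ) (act τ) (fun a _ => mem_univ _)
    (fun a _ => mem_univ _) (fun a _ => hτ a) (fun a _ => hτ a) (fun a _ => rfl)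

lemma Qv_tw (δ : Fin 3 → ℤ) (τ : Equiv.Perm K1 × Equiv.Perm K2)
    (hτ : ∀ σ : Col K1 K2, act τ (act τ σ) = σ) (h : Tri K1 K2) : Qv δ (tw τ h) = Qv δ h := by
  have hA : sumSq δ (tw τ h) = sumSq δ h := by
    simp only [sumSq_def, tw_apply]
    exact sum_states_act δ τ hτ (fun σ => (∑ i, h i σ) ^ 2)
  have hD : diagSq δ (tw τ h) = diagSq δ h := by
    simp only [diagSq_def, tw_apply]
    exact sum_states_act δ τ hτ (fun σ => ∑ i, (h i σ) ^ 2)
  have hM : ∀ i, mean δ (tw τ h) i = mean δ h i := by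
    intro i
    simp only [mean_def, tw_apply]
    exact sum_states_act δ τ hτ (fun σ => h i σ)
  simp only [Qv_def, hA, hD, hM]

lemma N2_tw (τ : Equiv.Perm K1 × Equiv.Perm K2)
    (hτ : ∀ σ : Col K1 K2, act τ (act τ σ) = σ) (h : Tri K1 K2) : N2 (tw τ h) = N2 h := by
  simp only [N2_def, tw_apply]
  exact Finset.sum_congr rfl fun i _ => sum_univ_act τ hτ (fun σ => (h i σ) ^ 2)

lemma continuous_Qv (δ : Fin 3 → ℤ) : Continuous (fun h : Tri K1 K2 => Qv δ h) := by
  simp only [Qv_def, sumSq_def, diagSq_def, mean_def]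
  fun_prop

lemma continuous_N2 : Continuous (fun h : Tri K1 K2 => N2 h) := by
  simp only [N2_def]
  fun_prop

end Forms

section Minimiser

variable {K1 K2 : Type*} [Fintype K1] [DecidableEq K1] [Fintype K2] [DecidableEq K2]

/-- If the form takes a negative value on view-measurable triples, it has a minimiser on the
unit ball, with the homogeneous minimality property. -/
theorem exists_minimiser (δ : Fin 3 → ℤ) (h0 : Tri K1 K2) (hm : Meas h0) (hneg : Qv δ h0 < 0) :
    ∃ v : Tri K1 K2, Meas v ∧ N2 v ≤ 1 ∧ Qv δ v < 0 ∧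
      ∀ h : Tri K1 K2, Meas h → Qv δ v * N2 h ≤ Qv δ h := by
  classical
  set C : Set (Tri K1 K2) := {h | Meas h ∧ N2 h ≤ 1} with hC
  have hclosed : IsClosed C := by
    have h1 : IsClosed {h : Tri K1 K2 | Meas h} := by
      have : {h : Tri K1 K2 | Meas h} = ⋂ i, ⋂ σ, ⋂ σ',
          {h : Tri K1 K2 | view i σ = view i σ' → h i σ = h i σ'} := by
        ext h; simp [Meas]
      rw [this]
      refine isClosed_iInter fun i => isClosed_iInter fun σ => isClosed_iInter fun σ' => ?_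
      by_cases hv : view i σ = view i σ'
      · simp only [hv, forall_true_left]
        exact isClosed_eq (by fun_prop) (by fun_prop)
      · simp [hv]
    have h2 : IsClosed {h : Tri K1 K2 | N2 h ≤ 1} := isClosed_le continuous_N2 continuous_const
    exact h1.inter h2
  have hsub : C ⊆ Metric.closedBall (0 : Tri K1 K2) 1 := by
    intro h hh
    rw [mem_closedBall_zero_iff, pi_norm_le_iff_of_nonneg zero_le_one]
    intro i
    rw [pi_norm_le_iff_of_nonneg zero_le_one]
    intro σ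
    have h1 : (h i σ) ^ 2 ≤ 1 := le_trans (sq_le_N2 h i σ) hh.2
    rw [Real.norm_eq_abs]
    exact abs_le_one_iff_mul_self_le_one.mpr (by nlinarith [h1])
  have hcomp : IsCompact C :=
    (isCompact_closedBall (0 : Tri K1 K2) 1).of_isClosed_subset hclosed hsub
  have hne : C.Nonempty := ⟨0, Meas.zero, by rw [N2_zero]; exact zero_le_one⟩
  obtain ⟨v, hvC, hvmin⟩ := hcomp.exists_isMinOn hne (continuous_Qv δ).continuousOn
  have hN0 : 0 < N2 h0 := by
    by_contra hcon
    have hz : N2 h0 = 0 := le_antisymm (not_lt.mp hcon) (N2_nonneg h0)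
    have : h0 = 0 := N2_eq_zero hz
    rw [this, Qv_zero] at hneg
    exact lt_irrefl _ hneg
  have key : ∀ h : Tri K1 K2, Meas h → Qv δ v * N2 h ≤ Qv δ h := by
    intro h hmh
    by_cases hz : N2 h = 0
    · have : h = 0 := N2_eq_zero hz
      rw [this, Qv_zero, N2_zero, mul_zero]
    · have hpos : 0 < N2 h := lt_of_le_of_ne (N2_nonneg h) (Ne.symm hz)
      set c : ℝ := 1 / Real.sqrt (N2 h) with hc
      have hc2 : c ^ 2 = 1 / N2 h := by
        rw [hc, div_pow, one_pow, Real.sq_sqrt hpos.le]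
      have hin : c • h ∈ C := by
        refine ⟨Meas.smul c hmh, ?_⟩
        rw [N2_smul, hc2, one_div, inv_mul_cancel₀ hz]
      have h1 : Qv δ v ≤ Qv δ (c • h) := hvmin hin
      rw [Qv_smul, hc2] at h1
      have h2 : Qv δ v * N2 h ≤ 1 / N2 h * Qv δ h * N2 h :=
        mul_le_mul_of_nonneg_right h1 hpos.le
      have h3 : 1 / N2 h * Qv δ h * N2 h = Qv δ h := by
        field_simp
      rw [h3] at h2
      exact h2
  refine ⟨v, hvC.1, hvC.2, ?_, key⟩
  have h1 := key h0 hm
  by_contra hge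
  have h2 := mul_nonneg (not_lt.mp hge) hN0.le
  linarith

/-- Antisymmetric triples: pointwise at most two of the three values are non-zero. -/
theorem Qv_nonneg_of_anti (δ : Fin 3 → ℤ) (τ : Equiv.Perm K1 × Equiv.Perm K2)
    (hτ : ∀ σ : Col K1 K2, act τ (act τ σ) = σ)
    (hfix : ∀ σ : Col K1 K2, ∃ k, view k (act τ σ) = view k σ)
    (h : Tri K1 K2) (hm : Meas h) (hanti : ∀ i σ, h i (act τ σ) = - h i σ) : 0 ≤ Qv δ h := by
  have hmean : ∀ i, mean δ h i = 0 := by
    intro i
    have h1 := sum_states_act δ τ hτ (fun σ => h i σ)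
    simp only [hanti, Finset.sum_neg_distrib] at h1
    rw [mean_def]
    linarith
  have hpt : ∀ σ : Col K1 K2, (∑ i, h i σ) ^ 2 ≤ 2 * ∑ i, (h i σ) ^ 2 := by
    intro σ
    obtain ⟨k, hk⟩ := hfix σ
    have hk0 : h k σ = 0 := by
      have h1 := hm k _ _ hk
      rw [hanti] at h1
      linarith
    rw [Fin.sum_univ_three, Fin.sum_univ_three]
    fin_cases k
    · have h0' : h 0 σ = 0 := hk0
      rw [h0']
      nlinarith [sq_nonneg (h 1 σ - h 2 σ)]
    · have h0' : h 1 σ = 0 := hk0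
      rw [h0']
      nlinarith [sq_nonneg (h 0 σ - h 2 σ)]
    · have h0' : h 2 σ = 0 := hk0
      rw [h0']
      nlinarith [sq_nonneg (h 0 σ - h 1 σ)]
  have hle : sumSq δ h ≤ 2 * diagSq δ h := by
    rw [sumSq_def, diagSq_def, Finset.mul_sum]
    exact Finset.sum_le_sum fun σ _ => hpt σ
  have hcard : (0 : ℝ) ≤ ((states δ : Finset (Col K1 K2)).card : ℝ) := Nat.cast_nonneg _
  rw [Qv_def]
  simp only [hmean]
  have h2 := mul_le_mul_of_nonneg_left hle hcard
  simp only [Finset.sum_const_zero, ne_eq, OfNat.ofNat_ne_zero, not_false_eq_true, zero_pow,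
    sub_zero]
  linarith

/-- The minimiser is invariant under every involutive relabelling on whose antisymmetric
triples the form is non-negative. -/
theorem minimiser_invariant (δ : Fin 3 → ℤ) (v : Tri K1 K2) (hv : Meas v) (hN : N2 v ≤ 1)
    (hq : Qv δ v < 0) (hmin : ∀ h : Tri K1 K2, Meas h → Qv δ v * N2 h ≤ Qv δ h)
    (τ : Equiv.Perm K1 × Equiv.Perm K2) (hτ : ∀ σ : Col K1 K2, act τ (act τ σ) = σ)
    (hanti : ∀ h : Tri K1 K2, Meas h → (∀ i σ, h i (act τ σ) = - h i σ) → 0 ≤ Qv δ h) :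
    ∀ i σ, v i (act τ σ) = v i σ := by
  set vp : Tri K1 K2 := (1 / 2 : ℝ) • (v + tw τ v) with hvp_def
  set vm : Tri K1 K2 := (1 / 2 : ℝ) • (v - tw τ v) with hvm_def
  have hvp : Meas vp := (hv.add (hv.tw τ)).smul _
  have hvm : Meas vm := (hv.sub (hv.tw τ)).smul _
  have e1 : vp + vm = v := by
    funext i σ
    simp only [hvp_def, hvm_def, Pi.add_apply, Pi.smul_apply, Pi.sub_apply, smul_eq_mul]
    ring
  have e2 : vp - vm = tw τ v := by
    funext i σ
    simp only [hvp_def, hvm_def, Pi.add_apply, Pi.smul_apply, Pi.sub_apply, smul_eq_mul]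
    ring
  have hQ : Qv δ v = Qv δ vp + Qv δ vm := by
    have h1 := Qv_para δ vp vm
    rw [e1, e2, Qv_tw δ τ hτ] at h1
    linarith
  have hNN : N2 v = N2 vp + N2 vm := by
    have h1 := N2_para vp vm
    rw [e1, e2, N2_tw τ hτ] at h1
    linarith
  have hanti' : ∀ i σ, vm i (act τ σ) = - vm i σ := by
    intro i σ
    simp only [hvm_def, Pi.smul_apply, Pi.sub_apply, smul_eq_mul, tw_apply, hτ]
    ring
  have h1 := hanti vm hvm hanti'
  have h2 := hmin vp hvp
  have h3 : N2 vm ≤ 0 := by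
    by_contra hpos
    have hpos := not_le.mp hpos
    have h4 : N2 vp ≤ 1 - N2 vm := by linarith
    have h5 : Qv δ v * (1 - N2 vm) ≤ Qv δ v * N2 vp :=
      mul_le_mul_of_nonpos_left h4 hq.le
    nlinarith
  have h4 : N2 vm = 0 := le_antisymm h3 (N2_nonneg _)
  have h5 : vm = 0 := N2_eq_zero h4
  intro i σ
  have h6 := congrFun (congrFun h5 i) σ
  simp only [hvm_def, Pi.smul_apply, Pi.sub_apply, smul_eq_mul, tw_apply, Pi.zero_apply] at h6
  linarith

/-- Invariance under all swaps gives invariance under all relabellings. -/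
theorem inv_perm (v : Tri K1 K2)
    (hL : ∀ (x y : K1) i σ, v i (act (Equiv.swap x y, 1) σ) = v i σ)
    (hR : ∀ (x y : K2) i σ, v i (act (1, Equiv.swap x y) σ) = v i σ)
    (π : Equiv.Perm K1 × Equiv.Perm K2) : ∀ i σ, v i (act π σ) = v i σ := by
  have hL' : ∀ π1 : Equiv.Perm K1, ∀ i σ, v i (act (π1, 1) σ) = v i σ := by
    intro π1
    induction π1 using Equiv.Perm.swap_induction_on with
    | one =>
      intro i σ
      have : act ((1 : Equiv.Perm K1), (1 : Equiv.Perm K2)) σ = σ := by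
        ext z <;> simp [act]
      rw [this]
    | swap_mul f x y hxy ih =>
      intro i σ
      have : act (Equiv.swap x y * f, (1 : Equiv.Perm K2)) σ
          = act (f, 1) (act (Equiv.swap x y, 1) σ) := by
        ext z <;> simp [act]
      rw [this, ih, hL]
  have hR' : ∀ π2 : Equiv.Perm K2, ∀ i σ, v i (act (1, π2) σ) = v i σ := by
    intro π2
    induction π2 using Equiv.Perm.swap_induction_on with
    | one =>
      intro i σ
      have : act ((1 : Equiv.Perm K1), (1 : Equiv.Perm K2)) σ = σ := by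
        ext z <;> simp [act]
      rw [this]
    | swap_mul f x y hxy ih =>
      intro i σ
      have : act ((1 : Equiv.Perm K1), Equiv.swap x y * f) σ
          = act (1, f) (act (1, Equiv.swap x y) σ) := by
        ext z <;> simp [act]
      rw [this, ih, hR]
  intro i σ
  have : act π σ = act (π.1, 1) (act (1, π.2) σ) := by
    ext z <;> simp [act]
  rw [this, hL', hR']

lemma exists_perm_cls {K : Type*} [Fintype K] [DecidableEq K] (s s' : K → Fin 3) (i : Fin 3)
    (h : (cls s i).card = (cls s' i).card) : ∃ π : Equiv.Perm K, cls (s' ∘ π) i = cls s i := by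
  classical
  let e : {x // x ∈ cls s i} ≃ {x // x ∈ cls s' i} := Finset.equivOfCardEq h
  refine ⟨e.extendSubtype, ?_⟩
  ext x
  rw [mem_cls_comp]
  constructor
  · intro hx
    by_contra hn
    exact Equiv.extendSubtype_not_mem e x hn hx
  · intro hx
    exact Equiv.extendSubtype_mem e x hx

/-- An invariant view-measurable triple depends on the class sizes only. -/
theorem level_const (v : Tri K1 K2) (hv : Meas v)
    (hinv : ∀ (π : Equiv.Perm K1 × Equiv.Perm K2) i σ, v i (act π σ) = v i σ)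
    (i : Fin 3) (σ σ' : Col K1 K2)
    (h1 : (cls σ.1 i).card = (cls σ'.1 i).card) (h2 : (cls σ.2 i).card = (cls σ'.2 i).card) :
    v i σ = v i σ' := by
  obtain ⟨π1, hπ1⟩ := exists_perm_cls σ.1 σ'.1 i h1
  obtain ⟨π2, hπ2⟩ := exists_perm_cls σ.2 σ'.2 i h2
  have hview : view i (act (π1, π2) σ') = view i σ := by
    rw [view_eq_iff]
    exact ⟨hπ1, hπ2⟩
  rw [← hv i _ _ hview, hinv]

end Minimiser

section Counting

open Nat in
/-- Multinomial count for three colours. -/
theorem card_colourings {K : Type*} [Fintype K] [DecidableEq K] (n : Fin 3 → ℕ)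
    (hn : n 0 + n 1 + n 2 = Fintype.card K) :
    (univ.filter (fun s : K → Fin 3 => ∀ i, (cls s i).card = n i)).card
      * ((n 0)! * (n 1)! * (n 2)!) = (Fintype.card K)! := by
  classical
  set P : Finset (Σ _ : Finset K, Finset K) :=
    (powersetCard (n 0) (univ : Finset K)).sigma (fun A => powersetCard (n 1) (univ \ A)) with hP
  have hcardP : P.card = (Fintype.card K).choose (n 0) * (Fintype.card K - n 0).choose (n 1) := by
    rw [hP, Finset.card_sigma]
    have : ∀ A ∈ powersetCard (n 0) (univ : Finset K),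
        (powersetCard (n 1) (univ \ A)).card = (Fintype.card K - n 0).choose (n 1) := by
      intro A hA
      rw [Finset.card_powersetCard, Finset.card_sdiff_of_subset (Finset.subset_univ A),
        (Finset.mem_powersetCard.mp hA).2, Finset.card_univ]
    rw [Finset.sum_congr rfl this, Finset.sum_const, Finset.card_powersetCard, Finset.card_univ,
      smul_eq_mul]
  have hbij : (univ.filter (fun s : K → Fin 3 => ∀ i, (cls s i).card = n i)).card = P.card := by
    apply Finset.card_bij (fun s _ => (⟨cls s 0, cls s 1⟩ : Σ _ : Finset K, Finset K))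
    · intro s hs
      have hs' := (Finset.mem_filter.mp hs).2
      rw [hP, Finset.mem_sigma]
      refine ⟨Finset.mem_powersetCard.mpr ⟨Finset.subset_univ _, hs' 0⟩,
        Finset.mem_powersetCard.mpr ⟨?_, hs' 1⟩⟩
      intro x hx
      rw [Finset.mem_sdiff]
      refine ⟨mem_univ _, ?_⟩
      rw [mem_cls] at hx ⊢
      rw [hx]
      decide
    · intro s _ s' _ hss
      have h0 : cls s 0 = cls s' 0 := congrArg Sigma.fst hss
      have h1 : cls s 1 = cls s' 1 := by
        have := (Sigma.mk.inj_iff.mp hss).2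
        exact eq_of_heq this
      funext x
      have e0 : s x = 0 ↔ s' x = 0 := by
        rw [← mem_cls, ← mem_cls, h0]
      have e1 : s x = 1 ↔ s' x = 1 := by
        rw [← mem_cls, ← mem_cls, h1]
      generalize s x = a at e0 e1
      generalize s' x = b at e0 e1
      revert a b
      decide
    · rintro ⟨A, B⟩ hAB
      rw [hP, Finset.mem_sigma] at hAB
      obtain ⟨hA, hB⟩ := hAB
      have hA' := Finset.mem_powersetCard.mp hA
      have hB' := Finset.mem_powersetCard.mp hB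
      have hdisj : ∀ x, x ∈ B → x ∉ A := fun x hx => (Finset.mem_sdiff.mp (hB'.1 hx)).2
      set s : K → Fin 3 := fun x => if x ∈ A then 0 else if x ∈ B then 1 else 2 with hs
      have hc0 : cls s 0 = A := by
        ext x
        rw [mem_cls]
        by_cases hxA : x ∈ A
        · simp [hs, hxA]
        · by_cases hxB : x ∈ B
          · simp [hs, hxA, hxB]
          · simp [hs, hxA, hxB]
      have hc1 : cls s 1 = B := by
        ext x
        rw [mem_cls]
        by_cases hxA : x ∈ A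
        · have : x ∉ B := fun hxB => hdisj x hxB hxA
          simp [hs, hxA, this]
        · by_cases hxB : x ∈ B
          · simp [hs, hxA, hxB]
          · simp [hs, hxA, hxB]
      have hsum := sum_card_cls s
      rw [Fin.sum_univ_three, hc0, hc1, hA'.2, hB'.2] at hsum
      have hc2 : (cls s 2).card = n 2 := by omega
      refine ⟨s, ?_, ?_⟩
      · rw [Finset.mem_filter]
        refine ⟨mem_univ _, ?_⟩
        intro i
        fin_cases i
        · simpa [hc0] using hA'.2
        · simpa [hc1] using hB'.2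
        · simpa using hc2
      · simp only [hc0, hc1]
  rw [hbij, hcardP]
  have h0 : n 0 ≤ Fintype.card K := by omega
  have h1 : n 1 ≤ Fintype.card K - n 0 := by omega
  have h2 : n 2 = Fintype.card K - n 0 - n 1 := by omega
  have e1 := Nat.choose_mul_factorial_mul_factorial h0
  have e2 := Nat.choose_mul_factorial_mul_factorial h1
  rw [← h2] at e2
  calc (Fintype.card K).choose (n 0) * (Fintype.card K - n 0).choose (n 1)
        * ((n 0)! * (n 1)! * (n 2)!)
      = (Fintype.card K).choose (n 0) * (n 0)!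
        * ((Fintype.card K - n 0).choose (n 1) * (n 1)! * (n 2)!) := by ring
    _ = (Fintype.card K).choose (n 0) * (n 0)! * (Fintype.card K - n 0)! := by rw [e2]
    _ = (Fintype.card K)! := e1

variable {K1 K2 : Type*} [Fintype K1] [DecidableEq K1] [Fintype K2] [DecidableEq K2]

open Nat in
/-- The one-dimensional weights: `1 / (l! (l - δ_i)!)` on `l ≥ δ_i`. -/
noncomputable def pw (δ : Fin 3 → ℤ) (i : Fin 3) (l : ℕ) : ℝ :=
  if δ i ≤ (l : ℤ) then 1 / ((l ! : ℝ) * ((((l : ℤ) - δ i).toNat) ! : ℝ)) else 0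

open Nat in
lemma pw_pos_iff (δ : Fin 3 → ℤ) (i : Fin 3) (l : ℕ) : 0 < pw δ i l ↔ δ i ≤ (l : ℤ) := by
  unfold pw
  split_ifs with h
  · simp only [h, iff_true]
    positivity
  · simp [h]

open Nat in
lemma pw_nonneg (δ : Fin 3 → ℤ) (i : Fin 3) (l : ℕ) : 0 ≤ pw δ i l := by
  unfold pw
  split_ifs with h
  · positivity
  · exact le_refl _

lemma pw_interval (δ : Fin 3 → ℤ) (i : Fin 3) (a b c : ℕ) (hab : a ≤ b) (hbc : b ≤ c)
    (ha : 0 < pw δ i a) (hc : 0 < pw δ i c) : 0 < pw δ i b := by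
  rw [pw_pos_iff] at ha ⊢
  have : (a : ℤ) ≤ (b : ℤ) := by exact_mod_cast hab
  linarith

open Nat in
lemma pw_logconcave (δ : Fin 3 → ℤ) (i : Fin 3) (k : ℕ) :
    pw δ i k * pw δ i (k + 2) ≤ pw δ i (k + 1) ^ 2 := by
  by_cases h : δ i ≤ (k : ℤ)
  · have h1 : δ i ≤ ((k + 1 : ℕ) : ℤ) := by push_cast; linarith
    have h2 : δ i ≤ ((k + 2 : ℕ) : ℤ) := by push_cast; linarith
    obtain ⟨e, he⟩ : ∃ e : ℕ, ((k : ℤ) - δ i).toNat = e := ⟨_, rfl⟩
    have he1 : ((((k + 1 : ℕ) : ℤ)) - δ i).toNat = e + 1 := by push_cast; omega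
    have he2 : ((((k + 2 : ℕ) : ℤ)) - δ i).toNat = e + 2 := by push_cast; omega
    unfold pw
    rw [if_pos h, if_pos h1, if_pos h2, he, he1, he2]
    have hA : (0 : ℝ) < (k ! : ℝ) := by positivity
    have hE : (0 : ℝ) < (e ! : ℝ) := by positivity
    have f1 : ((k + 1)! : ℝ) = ((k : ℝ) + 1) * (k ! : ℝ) := by
      rw [Nat.factorial_succ]; push_cast; ring
    have f2 : ((k + 2)! : ℝ) = ((k : ℝ) + 2) * (((k : ℝ) + 1) * (k ! : ℝ)) := by
      rw [Nat.factorial_succ, Nat.factorial_succ]; push_cast; ring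
    have g1 : ((e + 1)! : ℝ) = ((e : ℝ) + 1) * (e ! : ℝ) := by
      rw [Nat.factorial_succ]; push_cast; ring
    have g2 : ((e + 2)! : ℝ) = ((e : ℝ) + 2) * (((e : ℝ) + 1) * (e ! : ℝ)) := by
      rw [Nat.factorial_succ, Nat.factorial_succ]; push_cast; ring
    rw [f1, f2, g1, g2]
    have hk : (0 : ℝ) ≤ (k : ℝ) := Nat.cast_nonneg k
    have hee : (0 : ℝ) ≤ (e : ℝ) := Nat.cast_nonneg e
    rw [one_div_mul_one_div, one_div_pow]
    apply one_div_le_one_div_of_le
    · positivity
    · have : (k ! : ℝ) * (e ! : ℝ) * (((k : ℝ) + 2) * (((k : ℝ) + 1) * (k ! : ℝ))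
            * (((e : ℝ) + 2) * (((e : ℝ) + 1) * (e ! : ℝ))))
          - (((k : ℝ) + 1) * (k ! : ℝ) * (((e : ℝ) + 1) * (e ! : ℝ))) ^ 2
          = (k ! : ℝ) ^ 2 * (e ! : ℝ) ^ 2 * ((k : ℝ) + 1) * ((e : ℝ) + 1) * ((k : ℝ) + e + 3) := by
        ring
      have hpos : 0 ≤ (k ! : ℝ) ^ 2 * (e ! : ℝ) ^ 2 * ((k : ℝ) + 1) * ((e : ℝ) + 1)
          * ((k : ℝ) + e + 3) := by positivity
      linarith
  · have : pw δ i k = 0 := by unfold pw; rw [if_neg h]
    rw [this, zero_mul]
    exact sq_nonneg _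

open Nat in
/-- The number of states at a given level vector. -/
theorem card_states_level (δ : Fin 3 → ℤ)
    (hδ : δ 0 + δ 1 + δ 2 = (Fintype.card K1 : ℤ) - (Fintype.card K2 : ℤ))
    (l : Fin 3 → ℕ) (hl : l 0 + l 1 + l 2 = Fintype.card K1) :
    ((((states δ : Finset (Col K1 K2)).filter (fun σ => ∀ i, (cls σ.1 i).card = l i)).card : ℕ) : ℝ)
      = ((Fintype.card K1)! : ℝ) * ((Fintype.card K2)! : ℝ) * ∏ i, pw δ i (l i) := by
  classical
  set A : Finset (K1 → Fin 3) := univ.filter (fun s => ∀ i, (cls s i).card = l i) with hA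
  set B : Finset (K2 → Fin 3) :=
    univ.filter (fun s => ∀ i, ((cls s i).card : ℤ) = (l i : ℤ) - δ i) with hB
  have hprod : (states δ : Finset (Col K1 K2)).filter (fun σ => ∀ i, (cls σ.1 i).card = l i)
      = A ×ˢ B := by
    ext σ
    rw [Finset.mem_filter, mem_states, Finset.mem_product, hA, hB, Finset.mem_filter,
      Finset.mem_filter]
    constructor
    · rintro ⟨h1, h2⟩
      refine ⟨⟨mem_univ _, h2⟩, mem_univ _, fun i => ?_⟩
      have := h1 i
      rw [h2 i] at this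
      linarith
    · rintro ⟨⟨_, h2⟩, _, h3⟩
      refine ⟨fun i => ?_, h2⟩
      rw [h2 i, h3 i]
      ring
  rw [hprod, Finset.card_product]
  by_cases hall : ∀ i, δ i ≤ (l i : ℤ)
  · set n : Fin 3 → ℕ := fun i => ((l i : ℤ) - δ i).toNat with hn
    have hB' : B = univ.filter (fun s : K2 → Fin 3 => ∀ i, (cls s i).card = n i) := by
      rw [hB]
      ext s
      simp only [Finset.mem_filter, mem_univ, true_and]
      constructor
      · intro h i
        have h3 := h i
        have h4 := hall i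
        show (cls s i).card = ((l i : ℤ) - δ i).toNat
        omega
      · intro h i
        have h3 : (cls s i).card = ((l i : ℤ) - δ i).toNat := h i
        have h4 := hall i
        omega
    have hnsum : n 0 + n 1 + n 2 = Fintype.card K2 := by
      have := hall 0
      have := hall 1
      have := hall 2
      simp only [hn]
      omega
    have cA := card_colourings (K := K1) l hl
    have cB := card_colourings (K := K2) n hnsum
    rw [← hA] at cA
    rw [← hB'] at cB
    have cA' : (A.card : ℝ) * (((l 0)! : ℝ) * ((l 1)! : ℝ) * ((l 2)! : ℝ))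
        = ((Fintype.card K1)! : ℝ) := by exact_mod_cast cA
    have cB' : (B.card : ℝ) * (((n 0)! : ℝ) * ((n 1)! : ℝ) * ((n 2)! : ℝ))
        = ((Fintype.card K2)! : ℝ) := by exact_mod_cast cB
    have hpw : ∀ i, pw δ i (l i) = 1 / (((l i)! : ℝ) * ((n i)! : ℝ)) := by
      intro i
      unfold pw
      rw [if_pos (hall i)]
    rw [Fin.prod_univ_three, hpw 0, hpw 1, hpw 2, ← cA', ← cB']
    push_cast
    have p0 : ((l 0)! : ℝ) ≠ 0 := by positivity
    have p1 : ((l 1)! : ℝ) ≠ 0 := by positivity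
    have p2 : ((l 2)! : ℝ) ≠ 0 := by positivity
    have q0 : ((n 0)! : ℝ) ≠ 0 := by positivity
    have q1 : ((n 1)! : ℝ) ≠ 0 := by positivity
    have q2 : ((n 2)! : ℝ) ≠ 0 := by positivity
    field_simp
  · have hall' := not_forall.mp hall
    obtain ⟨i, hi⟩ := hall'
    have hBe : B = ∅ := by
      rw [hB]
      apply Finset.filter_eq_empty_iff.mpr
      intro s _ hs
      have := hs i
      have h0 : (0 : ℤ) ≤ ((cls s i).card : ℤ) := Int.natCast_nonneg _
      linarith [not_le.mp hi]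
    have hz : ∏ j, pw δ j (l j) = 0 := by
      apply Finset.prod_eq_zero (mem_univ i)
      unfold pw
      rw [if_neg hi]
    rw [hBe, hz]
    simp

open Nat in
/-- Sums over states of functions of the level vector. -/
theorem sum_states_level (δ : Fin 3 → ℤ)
    (hδ : δ 0 + δ 1 + δ 2 = (Fintype.card K1 : ℤ) - (Fintype.card K2 : ℤ))
    (F : (Fin 3 → ℕ) → ℝ) :
    ∑ σ ∈ (states δ : Finset (Col K1 K2)), F (fun i => (cls σ.1 i).card)
      = ((Fintype.card K1)! : ℝ) * ((Fintype.card K2)! : ℝ)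
        * ∑ l ∈ Finset.Nat.antidiagonalTuple 3 (Fintype.card K1), (∏ i, pw δ i (l i)) * F l := by
  classical
  have hmaps : ∀ σ ∈ (states δ : Finset (Col K1 K2)),
      (fun i => (cls σ.1 i).card) ∈ Finset.Nat.antidiagonalTuple 3 (Fintype.card K1) := by
    intro σ _
    rw [Finset.Nat.mem_antidiagonalTuple]
    exact sum_card_cls σ.1
  rw [← Finset.sum_fiberwise_of_maps_to' hmaps F, Finset.mul_sum]
  refine Finset.sum_congr rfl fun l hl => ?_
  rw [Finset.sum_const, nsmul_eq_mul]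
  have hl' : l 0 + l 1 + l 2 = Fintype.card K1 := by
    have := Finset.Nat.mem_antidiagonalTuple.mp hl
    rw [Fin.sum_univ_three] at this
    exact this
  have hfil : (states δ : Finset (Col K1 K2)).filter (fun σ => (fun i => (cls σ.1 i).card) = l)
      = (states δ : Finset (Col K1 K2)).filter (fun σ => ∀ i, (cls σ.1 i).card = l i) := by
    apply Finset.filter_congr
    intro σ _
    exact funext_iff
  rw [hfil, card_states_level δ hδ l hl']
  ring

end Counting

section Final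

variable {K1 K2 : Type*} [Fintype K1] [DecidableEq K1] [Fintype K2] [DecidableEq K2]

/-- The one-dimensional lemma (PROOF.md section 4): three log-concave laws on `ℕ` with interval
supports, conditioned on the sum; `Var (∑ g_i) ≤ 2 ∑ Var g_i` in cross-multiplied form.
This is the statement of `Crest.Agent.Helper5.S0453.oneDim` (board #1760). -/
def OneDimStatement : Prop :=
  ∀ (p : Fin 3 → ℕ → ℝ), (∀ i k, 0 ≤ p i k) →
    (∀ i k, p i k * p i (k + 2) ≤ p i (k + 1) ^ 2) →
    (∀ i a b c, a ≤ b → b ≤ c → 0 < p i a → 0 < p i c → 0 < p i b) →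
    ∀ (m : ℕ) (g : Fin 3 → ℕ → ℝ),
      (∑ l ∈ Finset.Nat.antidiagonalTuple 3 m, ∏ i, p i (l i))
          * (∑ l ∈ Finset.Nat.antidiagonalTuple 3 m, (∏ i, p i (l i)) * (∑ i, g i (l i)) ^ 2)
        - (∑ l ∈ Finset.Nat.antidiagonalTuple 3 m, (∏ i, p i (l i)) * ∑ i, g i (l i)) ^ 2
      ≤ 2 * ∑ i, ((∑ l ∈ Finset.Nat.antidiagonalTuple 3 m, ∏ j, p j (l j))
          * (∑ l ∈ Finset.Nat.antidiagonalTuple 3 m, (∏ j, p j (l j)) * g i (l i) ^ 2)
        - (∑ l ∈ Finset.Nat.antidiagonalTuple 3 m, (∏ j, p j (l j)) * g i (l i)) ^ 2)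

open Nat in
/-- (3.4) + (3.5): the form is non-negative on triples of functions of the levels. -/
theorem Qv_level_nonneg (h1D : OneDimStatement) (δ : Fin 3 → ℤ)
    (hδ : δ 0 + δ 1 + δ 2 = (Fintype.card K1 : ℤ) - (Fintype.card K2 : ℤ))
    (ψ : Fin 3 → ℕ → ℝ) :
    0 ≤ Qv δ (fun i (σ : Col K1 K2) => ψ i ((cls σ.1 i).card)) := by
  classical
  set c : ℝ := ((Fintype.card K1)! : ℝ) * ((Fintype.card K2)! : ℝ) with hc
  set S := Finset.Nat.antidiagonalTuple 3 (Fintype.card K1) with hS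
  have hcard : ((states δ : Finset (Col K1 K2)).card : ℝ)
      = c * ∑ l ∈ S, (∏ i, pw δ i (l i)) := by
    have h1 := sum_states_level (K1 := K1) (K2 := K2) δ hδ (fun _ => (1 : ℝ))
    simp only [Finset.sum_const, nsmul_eq_mul, mul_one] at h1
    exact h1
  have hsum : sumSq δ (fun i (σ : Col K1 K2) => ψ i ((cls σ.1 i).card))
      = c * ∑ l ∈ S, (∏ i, pw δ i (l i)) * (∑ i, ψ i (l i)) ^ 2 := by
    rw [sumSq_def]
    exact sum_states_level (K1 := K1) (K2 := K2) δ hδ (fun l => (∑ i, ψ i (l i)) ^ 2)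
  have hdiag : diagSq δ (fun i (σ : Col K1 K2) => ψ i ((cls σ.1 i).card))
      = c * ∑ l ∈ S, (∏ i, pw δ i (l i)) * ∑ i, (ψ i (l i)) ^ 2 := by
    rw [diagSq_def]
    exact sum_states_level (K1 := K1) (K2 := K2) δ hδ (fun l => ∑ i, (ψ i (l i)) ^ 2)
  have hmean : ∀ i, mean δ (fun i (σ : Col K1 K2) => ψ i ((cls σ.1 i).card)) i
      = c * ∑ l ∈ S, (∏ j, pw δ j (l j)) * ψ i (l i) := by
    intro i
    rw [mean_def]
    exact sum_states_level (K1 := K1) (K2 := K2) δ hδ (fun l => ψ i (l i))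
  have key := h1D (pw δ) (pw_nonneg δ) (pw_logconcave δ) (pw_interval δ) (Fintype.card K1) ψ
  rw [← hS] at key
  have e1 : ∑ l ∈ S, (∏ i, pw δ i (l i)) * ∑ i, ψ i (l i)
      = ∑ i, ∑ l ∈ S, (∏ j, pw δ j (l j)) * ψ i (l i) := by
    rw [Finset.sum_comm]
    exact Finset.sum_congr rfl fun l _ => Finset.mul_sum _ _ _
  have e2 : ∑ l ∈ S, (∏ i, pw δ i (l i)) * ∑ i, (ψ i (l i)) ^ 2
      = ∑ i, ∑ l ∈ S, (∏ j, pw δ j (l j)) * (ψ i (l i)) ^ 2 := by
    rw [Finset.sum_comm]
    exact Finset.sum_congr rfl fun l _ => Finset.mul_sum _ _ _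
  rw [e1] at key
  rw [Qv_def, hcard, hsum, hdiag, e2]
  simp only [hmean]
  simp only [Fin.sum_univ_three] at key ⊢
  have hc2 : 0 ≤ c ^ 2 := sq_nonneg c
  have key' := mul_le_mul_of_nonneg_left key hc2
  linear_combination key'

/-- The form `2 ∑ Var g_i - Var ∑ g_i` is non-negative on view-measurable triples. -/
theorem Qv_nonneg (h1D : OneDimStatement) (δ : Fin 3 → ℤ) (h : Tri K1 K2) (hm : Meas h) :
    0 ≤ Qv δ h := by
  classical
  by_contra hneg
  have hneg := not_le.mp hneg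
  obtain ⟨v, hv, hN, hq, hmin⟩ := exists_minimiser δ h hm hneg
  have hL : ∀ (x y : K1) i σ, v i (act (Equiv.swap x y, 1) σ) = v i σ := by
    intro x y
    exact minimiser_invariant δ v hv hN hq hmin (Equiv.swap x y, 1) (act_swapL_invol x y)
      (fun h' hm' hanti => Qv_nonneg_of_anti δ _ (act_swapL_invol x y)
        (exists_view_fixed_swapL x y) h' hm' hanti)
  have hR : ∀ (x y : K2) i σ, v i (act (1, Equiv.swap x y) σ) = v i σ := by
    intro x y
    exact minimiser_invariant δ v hv hN hq hmin (1, Equiv.swap x y) (act_swapR_invol x y)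
      (fun h' hm' hanti => Qv_nonneg_of_anti δ _ (act_swapR_invol x y)
        (exists_view_fixed_swapR x y) h' hm' hanti)
  have hinv := inv_perm v hL hR
  by_cases hne : (states δ : Finset (Col K1 K2)).Nonempty
  · obtain ⟨σ0, hσ0⟩ := hne
    have hδ : δ 0 + δ 1 + δ 2 = (Fintype.card K1 : ℤ) - (Fintype.card K2 : ℤ) := by
      have h1 := sum_card_cls σ0.1
      have h2 := sum_card_cls σ0.2
      rw [Fin.sum_univ_three] at h1 h2
      have h3 := mem_states.mp hσ0
      have a0 := h3 0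
      have a1 := h3 1
      have a2 := h3 2
      omega
    let φ : Fin 3 → ℕ → ℝ := fun i n =>
      if hex : ∃ σ : Col K1 K2, σ ∈ states δ ∧ (cls σ.1 i).card = n
      then v i (Classical.choose hex) else 0
    have hφ : ∀ i, ∀ σ ∈ (states δ : Finset (Col K1 K2)), v i σ = φ i ((cls σ.1 i).card) := by
      intro i σ hσ
      have hex : ∃ σ' : Col K1 K2, σ' ∈ states δ ∧ (cls σ'.1 i).card = (cls σ.1 i).card :=
        ⟨σ, hσ, rfl⟩
      simp only [φ, dif_pos hex]
      obtain ⟨hs1, hs2⟩ := Classical.choose_spec hex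
      apply level_const v hv hinv i
      · exact hs2.symm
      · have a := mem_states.mp hσ i
        have b := mem_states.mp hs1 i
        omega
    have hcong : Qv δ v = Qv δ (fun i (σ : Col K1 K2) => φ i ((cls σ.1 i).card)) :=
      Qv_congr δ hφ
    rw [hcong] at hq
    exact absurd (Qv_level_nonneg h1D δ hδ φ) (not_le.mpr hq)
  · rw [Finset.not_nonempty_iff_eq_empty] at hne
    have hz : Qv δ v = 0 := by
      simp [Qv_def, sumSq_def, diagSq_def, mean_def, hne]
    linarith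

/-- **(L3) for the colouring model** (PROOF.md section 3), canonical shape. -/
theorem L3 (h1D : OneDimStatement) (δ : Fin 3 → ℤ) (g : Fin 3 → Finset K1 × Finset K2 → ℝ)
    (h0 : ∀ i, ∑ σ ∈ (states δ : Finset (Col K1 K2)), g i (view i σ) = 0) :
    ∑ σ ∈ (states δ : Finset (Col K1 K2)), (∑ i, g i (view i σ)) ^ 2
      ≤ 2 * ∑ σ ∈ (states δ : Finset (Col K1 K2)), ∑ i, (g i (view i σ)) ^ 2 := by
  set h : Tri K1 K2 := fun i σ => g i (view i σ) with hh
  have hm : Meas h := by
    intro i σ σ' hv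
    simp only [hh]
    rw [hv]
  have hQ := Qv_nonneg h1D δ h hm
  have hmean : ∀ i, mean δ h i = 0 := by
    intro i
    rw [mean_def]
    exact h0 i
  have hA : sumSq δ h = ∑ σ ∈ (states δ : Finset (Col K1 K2)), (∑ i, g i (view i σ)) ^ 2 :=
    sumSq_def δ h
  have hD : diagSq δ h = ∑ σ ∈ (states δ : Finset (Col K1 K2)), ∑ i, (g i (view i σ)) ^ 2 :=
    diagSq_def δ h
  rw [← hA, ← hD]
  have e : Qv δ h = ((states δ : Finset (Col K1 K2)).card : ℝ)
      * (2 * diagSq δ h - sumSq δ h) := by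
    rw [Qv_def]
    simp only [hmean]
    simp only [Finset.sum_const_zero, ne_eq, OfNat.ofNat_ne_zero, not_false_eq_true, zero_pow,
      sub_zero]
    ring
  rw [e] at hQ
  by_cases hc : (states δ : Finset (Col K1 K2)).card = 0
  · have hemp : (states δ : Finset (Col K1 K2)) = ∅ := Finset.card_eq_zero.mp hc
    rw [sumSq_def, diagSq_def, hemp]
    simp
  · have hpos : (0 : ℝ) < ((states δ : Finset (Col K1 K2)).card : ℝ) := by
      exact_mod_cast Nat.pos_of_ne_zero hc
    have h2 : 0 ≤ 2 * diagSq δ h - sumSq δ h := by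
      by_contra hcon
      have hcon := not_le.mp hcon
      have := mul_neg_of_pos_of_neg hpos hcon
      linarith
    linarith

/-- (L3) transported along a bijection onto the states of a colouring model: the shape consumed
by the fibre analysis (PROOF.md (2.2)-(2.4)). -/
theorem L3_transport (h1D : OneDimStatement) {Ω : Type*} (δ : Fin 3 → ℤ) (F : Finset Ω)
    (col : Ω → Col K1 K2) (hinj : Set.InjOn col F) (himg : F.image col = states δ)
    (h : Fin 3 → Ω → ℝ)
    (hfac : ∀ i, ∀ ω ∈ F, ∀ ω' ∈ F, view i (col ω) = view i (col ω') → h i ω = h i ω')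
    (h0 : ∀ i, ∑ ω ∈ F, h i ω = 0) :
    ∑ ω ∈ F, (∑ i, h i ω) ^ 2 ≤ 2 * ∑ ω ∈ F, ∑ i, (h i ω) ^ 2 := by
  classical
  let g : Fin 3 → Finset K1 × Finset K2 → ℝ := fun i V =>
    if hex : ∃ ω, ω ∈ F ∧ view i (col ω) = V then h i (Classical.choose hex) else 0
  have hg : ∀ i, ∀ ω ∈ F, g i (view i (col ω)) = h i ω := by
    intro i ω hω
    have hex : ∃ ω', ω' ∈ F ∧ view i (col ω') = view i (col ω) := ⟨ω, hω, rfl⟩
    simp only [g, dif_pos hex]
    obtain ⟨h1, h2⟩ := Classical.choose_spec hex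
    exact hfac i _ h1 _ hω h2
  have hsum : ∀ G : Col K1 K2 → ℝ,
      ∑ σ ∈ (states δ : Finset (Col K1 K2)), G σ = ∑ ω ∈ F, G (col ω) := by
    intro G
    rw [← himg, Finset.sum_image hinj]
  have key := L3 h1D δ g (fun i => by
    rw [hsum (fun σ => g i (view i σ)), ← h0 i]
    exact Finset.sum_congr rfl (fun ω hω => hg i ω hω))
  rw [hsum (fun σ => (∑ i, g i (view i σ)) ^ 2),
    hsum (fun σ => ∑ i, (g i (view i σ)) ^ 2)] at key
  have eA : ∑ ω ∈ F, (∑ i, h i ω) ^ 2 = ∑ ω ∈ F, (∑ i, g i (view i (col ω))) ^ 2 := by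
    refine Finset.sum_congr rfl fun ω hω => ?_
    congr 1
    exact Finset.sum_congr rfl fun i _ => (hg i ω hω).symm
  have eD : ∑ ω ∈ F, ∑ i, (h i ω) ^ 2 = ∑ ω ∈ F, ∑ i, (g i (view i (col ω))) ^ 2 := by
    refine Finset.sum_congr rfl fun ω hω => ?_
    exact Finset.sum_congr rfl fun i _ => by rw [hg i ω hω]
  rw [eA, eD]
  exact key

end Final

end Crest.Agent.Helper12.S0453
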