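/-
S0453 (row 299): the three-party inequality (L3), UNCONDITIONAL, in every shape posted on the
board.  helper12.

Inputs: `Crest.Agent.Helper12.S0453.L3` (colouring model from the 1-D lemma, PROOF.md section 3)
and `Crest.Agent.Helper5.S0453.oneDim` (the 1-D lemma, PROOF.md section 4).
Consumers: helper56's / helper97's / helper78's table shapes.
-/
import Crest.Agent.Helper12.S0453.Colouring
import Crest.Agent.Helper5.S0453.OneDim
import Crest.Agent.Helper56.SW.TablesTransport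
import Crest.Agent.Helper97.SW.Tables
import Crest.Agent.Helper78.S0453.Table3

set_option autoImplicit false

open Finset

namespace Crest.Agent.Helper12.S0453

universe u v

/-- helper5's 1-D lemma in the packaged form used by `Colouring.lean`. -/
theorem oneDimStatement : OneDimStatement := by
  intro p hp hlc hint m g
  exact Crest.Agent.Helper5.S0453.oneDim p hp hlc hint m g

section Colouring

variable {K1 K2 : Type*} [Fintype K1] [DecidableEq K1] [Fintype K2] [DecidableEq K2]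

/-- **(L3) for the colouring model**, canonical shape (board #1861), no hypotheses left. -/
theorem L3_colouring (δ : Fin 3 → ℤ) (g : Fin 3 → Finset K1 × Finset K2 → ℝ)
    (h0 : ∀ i, ∑ σ ∈ (states δ : Finset (Col K1 K2)), g i (view i σ) = 0) :
    ∑ σ ∈ (states δ : Finset (Col K1 K2)), (∑ i, g i (view i σ)) ^ 2
      ≤ 2 * ∑ σ ∈ (states δ : Finset (Col K1 K2)), ∑ i, (g i (view i σ)) ^ 2 :=
  L3 oneDimStatement δ g h0

/-- (L3) transported along a bijection onto the states of a colouring model. -/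
theorem L3_colouring_transport {Ω : Type*} (δ : Fin 3 → ℤ) (F : Finset Ω)
    (col : Ω → Col K1 K2) (hinj : Set.InjOn col F) (himg : F.image col = states δ)
    (h : Fin 3 → Ω → ℝ)
    (hfac : ∀ i, ∀ ω ∈ F, ∀ ω' ∈ F, view i (col ω) = view i (col ω') → h i ω = h i ω')
    (h0 : ∀ i, ∑ ω ∈ F, h i ω = 0) :
    ∑ ω ∈ F, (∑ i, h i ω) ^ 2 ≤ 2 * ∑ ω ∈ F, ∑ i, (h i ω) ^ 2 :=
  L3_transport oneDimStatement δ F col hinj himg h hfac h0

/-- The variance form: `Var (∑ g_i) ≤ 2 ∑ Var g_i` (times `N²`), no centring needed. -/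
theorem L3_colouring_var (δ : Fin 3 → ℤ) (h : Tri K1 K2) (hm : Meas h) : 0 ≤ Qv δ h :=
  Qv_nonneg oneDimStatement δ h hm

end Colouring

/-- helper56's proposition `L3Colouring`. -/
theorem l3Colouring_h56 : Crest.Agent.Helper56.SW.L3Colouring.{u} := by
  intro K1 K2 _ _ _ _ dl g h0
  exact L3 oneDimStatement dl g h0

/-- helper97's proposition `L3Colouring K1 K2`. -/
theorem l3Colouring_h97 (K1 K2 : Type*) [Fintype K1] [DecidableEq K1] [Fintype K2]
    [DecidableEq K2] : Crest.Agent.Helper97.SW.L3Colouring K1 K2 := by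
  intro dl g h0
  exact L3 oneDimStatement dl g h0

section Tables

variable {C : Type u} [Fintype C] [DecidableEq C]

/-- **(L3) for three-row 0/1 tables** (helper56's `Tab r c`), no hypotheses left. -/
theorem L3_tables_h56 (r : Fin 3 → ℕ) (c : C → ℕ) (g : Fin 3 → Finset C → ℝ)
    (h0 : ∀ i, ∑ x ∈ Crest.Agent.Helper56.SW.Tab r c, g i (x i) = 0) :
    ∑ x ∈ Crest.Agent.Helper56.SW.Tab r c, (∑ i, g i (x i)) ^ 2
      ≤ 2 * ∑ x ∈ Crest.Agent.Helper56.SW.Tab r c, ∑ i, (g i (x i)) ^ 2 :=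
  Crest.Agent.Helper56.SW.L3_tables l3Colouring_h56 r c g h0

/-- (L3) on a finite set in bijection with helper56's `Tab r c`. -/
theorem L3_of_bij_h56 {Ω : Type v} (F : Finset Ω) (φ : Ω → Fin 3 → Finset C) (r : Fin 3 → ℕ)
    (c : C → ℕ) (hmem : ∀ w ∈ F, φ w ∈ Crest.Agent.Helper56.SW.Tab r c)
    (hinj : ∀ w ∈ F, ∀ w' ∈ F, φ w = φ w' → w = w')
    (hsurj : ∀ x ∈ Crest.Agent.Helper56.SW.Tab r c, ∃ w ∈ F, φ w = x)
    (h : Fin 3 → Ω → ℝ)
    (hfac : ∀ i, ∀ w ∈ F, ∀ w' ∈ F, φ w i = φ w' i → h i w = h i w')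
    (h0 : ∀ i, ∑ w ∈ F, h i w = 0) :
    ∑ w ∈ F, (∑ i, h i w) ^ 2 ≤ 2 * ∑ w ∈ F, ∑ i, (h i w) ^ 2 :=
  Crest.Agent.Helper56.SW.L3_of_bij l3Colouring_h56 F φ r c hmem hinj hsurj h hfac h0

/-- (L3) on a finite set whose image is helper56's `Tab r c`. -/
theorem L3_of_image_h56 {Ω : Type v} (F : Finset Ω) (φ : Ω → Fin 3 → Finset C) (r : Fin 3 → ℕ)
    (c : C → ℕ) (hinj : Set.InjOn φ F) (himg : F.image φ = Crest.Agent.Helper56.SW.Tab r c)
    (h : Fin 3 → Ω → ℝ)
    (hfac : ∀ i, ∀ w ∈ F, ∀ w' ∈ F, φ w i = φ w' i → h i w = h i w')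
    (h0 : ∀ i, ∑ w ∈ F, h i w = 0) :
    ∑ w ∈ F, (∑ i, h i w) ^ 2 ≤ 2 * ∑ w ∈ F, ∑ i, (h i w) ^ 2 :=
  Crest.Agent.Helper56.SW.L3_of_image l3Colouring_h56 F φ r c hinj himg h hfac h0

/-- (L3) for three-row 0/1 tables, helper97's `Tab r c`. -/
theorem L3_tables_h97 (r : Fin 3 → ℕ) (c : C → ℕ) (g : Fin 3 → Finset C → ℝ)
    (h0 : ∀ i, ∑ x ∈ Crest.Agent.Helper97.SW.Tab r c, g i (x i) = 0) :
    ∑ x ∈ Crest.Agent.Helper97.SW.Tab r c, (∑ i, g i (x i)) ^ 2
      ≤ 2 * ∑ x ∈ Crest.Agent.Helper97.SW.Tab r c, ∑ i, (g i (x i)) ^ 2 :=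
  Crest.Agent.Helper97.SW.L3_tables_of_colouring r c (l3Colouring_h97 _ _) g h0

/-- helper78's table interface `L3 C` (column sums first, row sums second). -/
theorem L3_h78 : Crest.Agent.Helper78.S0453.L3 C := by
  intro c r g h0
  have hT : Crest.Agent.Helper78.S0453.Tab c r = Crest.Agent.Helper97.SW.Tab r c := by
    ext x
    rw [Crest.Agent.Helper78.S0453.mem_Tab, Crest.Agent.Helper97.SW.mem_Tab]
    exact and_comm
  rw [hT] at h0 ⊢
  have key := L3_tables_h97 r c g h0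
  rw [Finset.sum_comm]
  exact key

end Tables

end Crest.Agent.Helper12.S0453
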